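import Vale.Agent.P266.Soft

namespace Vale.Agent.Results.P266.Criterion

theorem result {B : Type} [CommRing B] [Algebra ℂ B] [Algebra.FiniteType ℂ B] (e : B →ₐ[ℂ] ℂ)
    (D1 D2 : Derivation ℂ B B) (a b : B) (h1 : ∀ x, e (D1 x) = 0 ∧ e (D2 x) = 0)
    (h2 : ∀ x : B, IsIntegral (Algebra.adjoin ℂ {a, b}) x)
    (h3 : ∃ p0 : Ideal B, p0.IsPrime ∧ p0 ≤ RingHom.ker e ∧ p0 ≠ RingHom.ker e)
    (h4 : ∃ g, e g ≠ 0 ∧ ∀ p : Ideal B, p.IsPrime → g ∉ p →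
      (∀ x y, D1 x * D2 y - D2 x * D1 y ∈ p) → RingHom.ker e ≤ p) :
    ∃ (A : Type) (_ : CommRing A) (_ : IsDomain A) (_ : Algebra ℂ A), Algebra.FiniteType ℂ A ∧
      Module.Free A (Derivation ℂ A A) ∧ ¬ IsRegularRing A :=
  Vale.Agent.P266.soft e D1 D2 a b h1 h2 h3 h4

end Vale.Agent.Results.P266.Criterion
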